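import Mathlib

/-!
# Tingley's problem: every real inner product space has the Mazur-Ulam property

Let `H` be a real inner product space (of any dimension, complete or not) and `Y` an arbitrary
real normed space.  Every surjective isometry from the unit sphere of `H` onto the unit sphere of
`Y` is the restriction of a surjective real-linear isometry `H → Y`.
-/

namespace Vale.Agent.Results.P084.HilbertMazurUlam

open scoped RealInnerProductSpace

section ips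

variable {H : Type*} [NormedAddCommGroup H] [InnerProductSpace ℝ H]

theorem unit_rhombus (x y : H) (hx : ‖x‖ = 1) (hy : ‖y‖ = 1) :
    ‖x + y‖ ^ 2 + ‖x - y‖ ^ 2 = 4 := by
  have h := parallelogram_law_with_norm ℝ x y
  rw [hx, hy] at h
  nlinarith [h]

theorem eq_neg_of_dist_two (x y : H) (hx : ‖x‖ = 1) (hy : ‖y‖ = 1) (h : ‖x - y‖ = 2) :
    y = -x := by
  have h1 := unit_rhombus x y hx hy
  rw [h] at h1
  have h2 : ‖x + y‖ ^ 2 = 0 := by linarith
  have h3 : ‖x + y‖ = 0 := by simpa using h2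
  have h4 : x + y = 0 := norm_eq_zero.mp h3
  exact eq_neg_of_add_eq_zero_right h4

theorem eq_of_norm_add_two (x y : H) (hx : ‖x‖ = 1) (hy : ‖y‖ = 1) (h : ‖x + y‖ = 2) :
    x = y := by
  have h1 := unit_rhombus x y hx hy
  rw [h] at h1
  have h2 : ‖x - y‖ ^ 2 = 0 := by linarith
  have h3 : ‖x - y‖ = 0 := by simpa using h2
  exact sub_eq_zero.mp (norm_eq_zero.mp h3)

end ips

theorem unit_normalize {E : Type*} [NormedAddCommGroup E] [NormedSpace ℝ E] (v : E) (hv : v ≠ 0) :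
    ‖‖v‖⁻¹ • v‖ = 1 := by
  rw [norm_smul, norm_inv, norm_norm]
  exact inv_mul_cancel₀ (norm_ne_zero_iff.mpr hv)

section core

variable {H : Type*} [NormedAddCommGroup H] [InnerProductSpace ℝ H]
variable {Y : Type*} [NormedAddCommGroup Y] [NormedSpace ℝ Y]
variable (φ : H → Y)
variable (h1 : ∀ x, ‖x‖ = 1 → ‖φ x‖ = 1)
variable (hd : ∀ x y, ‖x‖ = 1 → ‖y‖ = 1 → ‖φ x - φ y‖ = ‖x - y‖)
variable (hs : ∀ w : Y, ‖w‖ = 1 → ∃ x, ‖x‖ = 1 ∧ φ x = w)

include h1 hd hs in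
theorem phi_neg (x : H) (hx : ‖x‖ = 1) : φ (-x) = -φ x := by
  obtain ⟨y, hy, hxy⟩ := hs (-φ x) (by rw [norm_neg]; exact h1 x hx)
  have h2 : ‖x - y‖ = 2 := by
    rw [← hd x y hx hy, hxy, sub_neg_eq_add, ← two_smul ℝ (φ x), norm_smul, h1 x hx]
    norm_num
  have h3 : y = -x := eq_neg_of_dist_two x y hx hy h2
  rw [← h3, hxy]

include h1 hd hs in
theorem phi_add_norm (x y : H) (hx : ‖x‖ = 1) (hy : ‖y‖ = 1) : ‖φ x + φ y‖ = ‖x + y‖ := by
  have h2 := hd x (-y) hx (by rw [norm_neg]; exact hy)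
  rw [phi_neg φ h1 hd hs y hy] at h2
  simpa [sub_neg_eq_add] using h2

include h1 hd hs in
theorem strict_aux (x y : H) (hx : ‖x‖ = 1) (hy : ‖y‖ = 1) (a b : ℝ) (ha : 0 < a) (hb : 0 < b)
    (h : ‖a • φ x + b • φ y‖ = a + b) : x = y := by
  have hxy : ‖φ x + φ y‖ = ‖x + y‖ := phi_add_norm φ h1 hd hs x y hx hy
  have hle : ‖x + y‖ ≤ 2 := by
    calc ‖x + y‖ ≤ ‖x‖ + ‖y‖ := norm_add_le x y
      _ = 2 := by rw [hx, hy]; norm_num
  have hge : 2 ≤ ‖φ x + φ y‖ := by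
    rcases le_total a b with hab | hab
    · have e : a • φ x + b • φ y = a • (φ x + φ y) + (b - a) • φ y := by
        rw [smul_add, sub_smul]; abel
      have h2 : ‖a • φ x + b • φ y‖ ≤ a * ‖φ x + φ y‖ + (b - a) := by
        rw [e]
        calc ‖a • (φ x + φ y) + (b - a) • φ y‖ ≤ ‖a • (φ x + φ y)‖ + ‖(b - a) • φ y‖ :=
              norm_add_le _ _
          _ = a * ‖φ x + φ y‖ + (b - a) := by
              rw [norm_smul, norm_smul, h1 y hy, Real.norm_of_nonneg ha.le,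
                Real.norm_of_nonneg (sub_nonneg.mpr hab), mul_one]
      rw [h] at h2
      have h3 : a * 2 ≤ a * ‖φ x + φ y‖ := by linarith
      exact le_of_mul_le_mul_left h3 ha
    · have e : a • φ x + b • φ y = b • (φ x + φ y) + (a - b) • φ x := by
        rw [smul_add, sub_smul]; abel
      have h2 : ‖a • φ x + b • φ y‖ ≤ b * ‖φ x + φ y‖ + (a - b) := by
        rw [e]
        calc ‖b • (φ x + φ y) + (a - b) • φ x‖ ≤ ‖b • (φ x + φ y)‖ + ‖(a - b) • φ x‖ :=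
              norm_add_le _ _
          _ = b * ‖φ x + φ y‖ + (a - b) := by
              rw [norm_smul, norm_smul, h1 x hx, Real.norm_of_nonneg hb.le,
                Real.norm_of_nonneg (sub_nonneg.mpr hab), mul_one]
      rw [h] at h2
      have h3 : b * 2 ≤ b * ‖φ x + φ y‖ := by linarith
      exact le_of_mul_le_mul_left h3 hb
  rw [hxy] at hge
  exact eq_of_norm_add_two x y hx hy (le_antisymm hle hge)

include h1 hd hs in
/-- The rhombus law holds for unit vectors of `Y`. -/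
theorem target_rhombus (u v : Y) (hu : ‖u‖ = 1) (hv : ‖v‖ = 1) :
    ‖u + v‖ ^ 2 + ‖u - v‖ ^ 2 = 4 := by
  obtain ⟨x, hx, rfl⟩ := hs u hu
  obtain ⟨y, hy, rfl⟩ := hs v hv
  rw [phi_add_norm φ h1 hd hs x y hx hy, hd x y hx hy]
  exact unit_rhombus x y hx hy

include h1 hd hs in
/-- The midpoint lemma. -/
theorem phi_midpoint (x y : H) (hx : ‖x‖ = 1) (hy : ‖y‖ = 1) (hxy : x + y ≠ 0) :
    φ (‖x + y‖⁻¹ • (x + y)) = ‖x + y‖⁻¹ • (φ x + φ y) := by
  set ρ : ℝ := ‖x + y‖ with hρ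
  have hρpos : 0 < ρ := norm_pos_iff.mpr hxy
  set m : H := ρ⁻¹ • (x + y) with hm
  have hmn : ‖m‖ = 1 := by
    rw [hm, norm_smul, norm_inv, Real.norm_of_nonneg hρpos.le, ← hρ]
    exact inv_mul_cancel₀ hρpos.ne'
  -- inner products
  have hxx : ⟪x, x⟫ = 1 := by rw [real_inner_self_eq_norm_sq, hx]; norm_num
  have hyy : ⟪y, y⟫ = 1 := by rw [real_inner_self_eq_norm_sq, hy]; norm_num
  have hρsq : ρ ^ 2 = 2 + 2 * ⟪x, y⟫ := by
    rw [hρ, ← real_inner_self_eq_norm_sq, inner_add_left, inner_add_right, inner_add_right,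
      hxx, hyy, real_inner_comm x y]
    ring
  have hxm : ⟪x, m⟫ = ρ / 2 := by
    rw [hm, inner_smul_right, inner_add_right, hxx]
    field_simp
    nlinarith [hρsq]
  have hym : ⟪y, m⟫ = ρ / 2 := by
    rw [hm, inner_smul_right, inner_add_right, hyy, real_inner_comm x y]
    field_simp
    nlinarith [hρsq]
  have hmm : ⟪m, m⟫ = 1 := by rw [real_inner_self_eq_norm_sq, hmn]; norm_num
  have hxmsq : ‖x + m‖ ^ 2 = 2 + ρ := by
    rw [← real_inner_self_eq_norm_sq, inner_add_left, inner_add_right, inner_add_right,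
      hxx, hmm, real_inner_comm x m, hxm]
    ring
  have hymsq : ‖y + m‖ ^ 2 = 2 + ρ := by
    rw [← real_inner_self_eq_norm_sq, inner_add_left, inner_add_right, inner_add_right,
      hyy, hmm, real_inner_comm y m, hym]
    ring
  have hxysq : ‖x - y‖ ^ 2 = 4 - ρ ^ 2 := by
    have := unit_rhombus x y hx hy
    rw [← hρ] at this
    linarith
  set ρ₁ : ℝ := ‖x + m‖ with hρ₁
  have hρ₁sq : ρ₁ ^ 2 = 2 + ρ := hxmsq
  have hρ₁pos : 0 < ρ₁ := by
    have : 0 < ρ₁ ^ 2 := by rw [hρ₁sq]; linarith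
    exact lt_of_le_of_ne (norm_nonneg _) (fun h => by rw [← h] at this; simp at this)
  have hρ₁' : ‖y + m‖ = ρ₁ := by
    have h0 : 0 ≤ ‖y + m‖ := norm_nonneg _
    nlinarith [hymsq, hρ₁sq]
  -- the two auxiliary unit vectors
  set a₁ : Y := ρ₁⁻¹ • (φ x + φ m) with ha₁
  set a₂ : Y := ρ₁⁻¹ • (φ y + φ m) with ha₂
  have ha₁n : ‖a₁‖ = 1 := by
    rw [ha₁, norm_smul, norm_inv, Real.norm_of_nonneg hρ₁pos.le,
      phi_add_norm φ h1 hd hs x m hx hmn, ← hρ₁]
    exact inv_mul_cancel₀ hρ₁pos.ne'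
  have ha₂n : ‖a₂‖ = 1 := by
    rw [ha₂, norm_smul, norm_inv, Real.norm_of_nonneg hρ₁pos.le,
      phi_add_norm φ h1 hd hs y m hy hmn, hρ₁']
    exact inv_mul_cancel₀ hρ₁pos.ne'
  have hrh := target_rhombus φ h1 hd hs a₁ a₂ ha₁n ha₂n
  have hdiff : ‖a₁ - a₂‖ = ρ₁⁻¹ * ‖x - y‖ := by
    have e : a₁ - a₂ = ρ₁⁻¹ • (φ x - φ y) := by
      rw [ha₁, ha₂, ← smul_sub]; congr 1; abel
    rw [e, norm_smul, norm_inv, Real.norm_of_nonneg hρ₁pos.le, hd x y hx hy]
  have hsum : ‖a₁ + a₂‖ = ρ₁⁻¹ * ‖φ x + φ y + (2 : ℝ) • φ m‖ := by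
    have e : a₁ + a₂ = ρ₁⁻¹ • (φ x + φ y + (2 : ℝ) • φ m) := by
      rw [ha₁, ha₂, ← smul_add, two_smul]; congr 1; abel
    rw [e, norm_smul, norm_inv, Real.norm_of_nonneg hρ₁pos.le]
  -- the key norm identity
  have hkey : ‖φ x + φ y + (2 : ℝ) • φ m‖ = ρ + 2 := by
    set N : ℝ := ‖φ x + φ y + (2 : ℝ) • φ m‖ with hN
    have hN0 : 0 ≤ N := norm_nonneg _
    rw [hsum, hdiff] at hrh
    have h2 : N ^ 2 + ‖x - y‖ ^ 2 = 4 * ρ₁ ^ 2 := by
      have : (ρ₁⁻¹ * N) ^ 2 + (ρ₁⁻¹ * ‖x - y‖) ^ 2 = 4 := hrh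
      field_simp at this
      linarith
    rw [hxysq, hρ₁sq] at h2
    have h3 : N ^ 2 = (ρ + 2) ^ 2 := by nlinarith [h2]
    have h4 : 0 ≤ ρ + 2 := by linarith
    exact (sq_eq_sq₀ hN0 h4).mp h3
  -- the candidate midpoint image
  set a : Y := ρ⁻¹ • (φ x + φ y) with ha
  have han : ‖a‖ = 1 := by
    rw [ha, norm_smul, norm_inv, Real.norm_of_nonneg hρpos.le,
      phi_add_norm φ h1 hd hs x y hx hy, ← hρ]
    exact inv_mul_cancel₀ hρpos.ne'
  obtain ⟨m', hm'n, hm'⟩ := hs a han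
  have e2 : ρ • φ m' + (2 : ℝ) • φ m = φ x + φ y + (2 : ℝ) • φ m := by
    rw [hm', ha, smul_smul, mul_inv_cancel₀ hρpos.ne', one_smul]
  have h5 : ‖ρ • φ m' + (2 : ℝ) • φ m‖ = ρ + 2 := by rw [e2, hkey]
  have h6 : m' = m := strict_aux φ h1 hd hs m' m hm'n hmn ρ 2 hρpos (by norm_num) h5
  rw [← h6, hm']

/-- The positively homogeneous extension of `φ`. -/
noncomputable def ext (φ : H → Y) (v : H) : Y := ‖v‖ • φ (‖v‖⁻¹ • v)

theorem ext_zero : ext φ (0 : H) = 0 := by simp [ext]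

theorem ext_unit (x : H) (hx : ‖x‖ = 1) : ext φ x = φ x := by simp [ext, hx]

include h1 in
theorem ext_norm (v : H) : ‖ext φ v‖ = ‖v‖ := by
  by_cases hv : v = 0
  · simp [hv, ext]
  · rw [ext, norm_smul, norm_norm, h1 _ (unit_normalize v hv), mul_one]

include h1 hd hs in
theorem ext_smul (t : ℝ) (v : H) : ext φ (t • v) = t • ext φ v := by
  by_cases hv : v = 0
  · simp [hv, ext]
  have hvn : ‖v‖ ≠ 0 := norm_ne_zero_iff.mpr hv
  rcases lt_trichotomy t 0 with ht | ht | ht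
  · have e1 : ‖t • v‖ = -t * ‖v‖ := by rw [norm_smul, Real.norm_of_nonpos ht.le]
    have e2 : ‖t • v‖⁻¹ • (t • v) = -(‖v‖⁻¹ • v) := by
      rw [e1, smul_smul, ← neg_smul]
      congr 1
      have htn : t ≠ 0 := ht.ne
      field_simp
    rw [ext, e2, phi_neg φ h1 hd hs _ (unit_normalize v hv), e1, ext, smul_neg, ← neg_smul,
      smul_smul]
    congr 1
    ring
  · simp [ht, ext]
  · have e1 : ‖t • v‖ = t * ‖v‖ := by rw [norm_smul, Real.norm_of_nonneg ht.le]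
    have e2 : ‖t • v‖⁻¹ • (t • v) = ‖v‖⁻¹ • v := by
      rw [e1, smul_smul]
      congr 1
      field_simp
    rw [ext, e2, e1, ext, smul_smul]

include h1 hd hs in
theorem ext_add_of_norm_eq (v w : H) (h : ‖v‖ = ‖w‖) : ext φ (v + w) = ext φ v + ext φ w := by
  by_cases hvw : v + w = 0
  · have hw : w = (-1 : ℝ) • v := by rw [neg_one_smul]; exact eq_neg_of_add_eq_zero_right hvw
    rw [hvw, ext_zero, hw, ext_smul φ h1 hd hs]
    simp
  have hv : v ≠ 0 := by
    rintro rfl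
    have : w = 0 := by rw [norm_zero] at h; exact norm_eq_zero.mp h.symm
    exact hvw (by rw [this, add_zero])
  obtain ⟨r, hr⟩ : ∃ r : ℝ, r = ‖v‖ := ⟨_, rfl⟩
  have hrpos : 0 < r := by rw [hr]; exact norm_pos_iff.mpr hv
  obtain ⟨x, hx⟩ : ∃ x : H, x = r⁻¹ • v := ⟨_, rfl⟩
  obtain ⟨y, hy⟩ : ∃ y : H, y = r⁻¹ • w := ⟨_, rfl⟩
  have hxn : ‖x‖ = 1 := by rw [hx, hr]; exact unit_normalize v hv
  have hyn : ‖y‖ = 1 := by
    rw [hy, norm_smul, norm_inv, Real.norm_of_nonneg hrpos.le, ← h, ← hr]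
    exact inv_mul_cancel₀ hrpos.ne'
  have hvx : v = r • x := by rw [hx, smul_smul, mul_inv_cancel₀ hrpos.ne', one_smul]
  have hwy : w = r • y := by rw [hy, smul_smul, mul_inv_cancel₀ hrpos.ne', one_smul]
  have hxy : x + y ≠ 0 := by
    intro h0
    apply hvw
    rw [hvx, hwy, ← smul_add, h0, smul_zero]
  have key : ext φ (x + y) = ext φ x + ext φ y := by
    rw [ext_unit φ x hxn, ext_unit φ y hyn, ext, phi_midpoint φ h1 hd hs x y hxn hyn hxy,
      smul_smul, mul_inv_cancel₀ (norm_ne_zero_iff.mpr hxy), one_smul]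
  rw [hvx, hwy, ← smul_add, ext_smul φ h1 hd hs, ext_smul φ h1 hd hs, ext_smul φ h1 hd hs, key,
    smul_add]

include h1 hd hs in
theorem ext_add_of_inner_eq_zero (a b : H) (h : ⟪a, b⟫ = 0) :
    ext φ (a + b) = ext φ a + ext φ b := by
  have hn : ‖a + b‖ = ‖a - b‖ := by
    have := norm_sub_eq_norm_add (𝕜 := ℝ) (v := b) (w := a) (by rw [real_inner_comm]; exact h)
    exact this.symm
  have e1 : ext φ (a + b) + ext φ (a - b) = (2 : ℝ) • ext φ a := by
    rw [← ext_add_of_norm_eq φ h1 hd hs _ _ hn, ← ext_smul φ h1 hd hs]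
    congr 1
    rw [two_smul]; abel
  have e2 : ext φ (a + b) - ext φ (a - b) = (2 : ℝ) • ext φ b := by
    have hn' : ‖a + b‖ = ‖(-1 : ℝ) • (a - b)‖ := by rw [norm_smul, hn]; simp
    have e3 : ext φ (a + b) + ext φ ((-1 : ℝ) • (a - b)) = (2 : ℝ) • ext φ b := by
      rw [← ext_add_of_norm_eq φ h1 hd hs _ _ hn', ← ext_smul φ h1 hd hs]
      congr 1
      rw [two_smul, neg_one_smul]; abel
    rw [ext_smul φ h1 hd hs, neg_one_smul] at e3
    rw [sub_eq_add_neg]; exact e3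
  have e4 : (2 : ℝ) • ext φ (a + b) = (2 : ℝ) • (ext φ a + ext φ b) := by
    rw [smul_add, ← e1, ← e2, two_smul]; abel
  exact smul_right_injective Y (two_ne_zero' ℝ) e4

include h1 hd hs in
theorem ext_add (v w : H) : ext φ (v + w) = ext φ v + ext φ w := by
  by_cases hv : v = 0
  · rw [hv, zero_add, ext_zero, zero_add]
  set t : ℝ := ⟪v, w⟫ / ⟪v, v⟫ with ht
  set b : H := w - t • v with hb
  have hvv : ⟪v, v⟫ ≠ 0 := by
    rw [real_inner_self_eq_norm_sq]
    exact pow_ne_zero 2 (norm_ne_zero_iff.mpr hv)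
  have hvb : ⟪v, b⟫ = 0 := by
    rw [hb, inner_sub_right, inner_smul_right, ht, div_mul_cancel₀ _ hvv, sub_self]
  have hw : w = t • v + b := by rw [hb]; abel
  have o1 : ⟪(1 + t) • v, b⟫ = 0 := by rw [inner_smul_left, hvb, mul_zero]
  have o2 : ⟪t • v, b⟫ = 0 := by rw [inner_smul_left, hvb, mul_zero]
  have e1 : v + w = (1 + t) • v + b := by rw [hw, add_smul, one_smul, add_assoc]
  rw [e1, ext_add_of_inner_eq_zero φ h1 hd hs _ _ o1, ext_smul φ h1 hd hs, hw,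
    ext_add_of_inner_eq_zero φ h1 hd hs _ _ o2, ext_smul φ h1 hd hs, add_smul, one_smul,
    add_assoc]

include h1 hd hs in
theorem ext_surjective : Function.Surjective (ext φ) := by
  intro u
  by_cases hu : u = 0
  · exact ⟨0, by rw [hu, ext_zero]⟩
  obtain ⟨x, hx, hxu⟩ := hs (‖u‖⁻¹ • u) (unit_normalize u hu)
  refine ⟨‖u‖ • x, ?_⟩
  rw [ext_smul φ h1 hd hs, ext_unit φ x hx, hxu, smul_smul,
    mul_inv_cancel₀ (norm_ne_zero_iff.mpr hu), one_smul]

include h1 hd hs in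
/-- Core statement: a map defined on unit vectors which preserves the unit sphere, is isometric
on it and is onto the unit sphere of `Y` extends to a surjective linear isometry. -/
theorem core_extension : ∃ T : H ≃ₗᵢ[ℝ] Y, ∀ x, ‖x‖ = 1 → T x = φ x := by
  let L : H →ₗ[ℝ] Y :=
    { toFun := ext φ
      map_add' := ext_add φ h1 hd hs
      map_smul' := fun t v => by simpa using ext_smul φ h1 hd hs t v }
  let LI : H →ₗᵢ[ℝ] Y := { L with norm_map' := ext_norm φ h1 }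
  refine ⟨LinearIsometryEquiv.ofSurjective LI (ext_surjective φ h1 hd hs), ?_⟩
  intro x hx
  exact ext_unit φ x hx

end core

/-- **Every real inner product space has the Mazur-Ulam property.**
If `H` is a real inner product space and `Y` is any real normed space, then every surjective
isometry `f` from the unit sphere of `H` onto the unit sphere of `Y` is the restriction of a
surjective real-linear isometry `T : H → Y`. -/
theorem result {H : Type*} [NormedAddCommGroup H] [InnerProductSpace ℝ H]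
    {Y : Type*} [NormedAddCommGroup Y] [NormedSpace ℝ Y]
    (f : Metric.sphere (0 : H) 1 → Metric.sphere (0 : Y) 1)
    (hf : Isometry f) (hsurj : Function.Surjective f) :
    ∃ T : H ≃ₗᵢ[ℝ] Y, ∀ x : Metric.sphere (0 : H) 1, T (x : H) = (f x : Y) := by
  classical
  let φ : H → Y := fun v => if h : ‖v‖ = 1 then (f ⟨v, by simpa using h⟩ : Y) else 0
  have hφ : ∀ (v : H) (h : ‖v‖ = 1), φ v = (f ⟨v, by simpa using h⟩ : Y) := by
    intro v h
    simp only [φ, dif_pos h]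
  have h1 : ∀ x, ‖x‖ = 1 → ‖φ x‖ = 1 := by
    intro x hx
    rw [hφ x hx]
    exact norm_eq_of_mem_sphere _
  have hd : ∀ x y, ‖x‖ = 1 → ‖y‖ = 1 → ‖φ x - φ y‖ = ‖x - y‖ := by
    intro x y hx hy
    have key := hf.dist_eq (⟨x, mem_sphere_zero_iff_norm.mpr hx⟩ : Metric.sphere (0 : H) 1)
      ⟨y, mem_sphere_zero_iff_norm.mpr hy⟩
    rw [Subtype.dist_eq, Subtype.dist_eq, dist_eq_norm, dist_eq_norm] at key
    rw [hφ x hx, hφ y hy]
    exact key
  have hs : ∀ w : Y, ‖w‖ = 1 → ∃ x, ‖x‖ = 1 ∧ φ x = w := by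
    intro w hw
    obtain ⟨x, hx⟩ := hsurj ⟨w, by simp [hw]⟩
    have hxn : ‖(x : H)‖ = 1 := norm_eq_of_mem_sphere x
    refine ⟨x, hxn, ?_⟩
    rw [hφ _ hxn]
    have : (⟨(x : H), by simp [hxn]⟩ : Metric.sphere (0 : H) 1) = x := Subtype.ext rfl
    rw [this, hx]
  obtain ⟨T, hT⟩ := core_extension φ h1 hd hs
  refine ⟨T, fun x => ?_⟩
  have hxn : ‖(x : H)‖ = 1 := norm_eq_of_mem_sphere x
  rw [hT _ hxn, hφ _ hxn]

end Vale.Agent.Results.P084.HilbertMazurUlam
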