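import Mathlib
import Vale.Agent.Results.P084.HilbertMazurUlam

/-!
# Tingley's problem for inner product spaces, stated with norms

The same mathematics as `Vale.Agent.Results.P084.HilbertMazurUlam`, with the definition of a
surjective isometry between unit spheres written out with norms: a map `f` sending unit vectors
of a real inner product space `H` to unit vectors of a real normed space `Y`, preserving
distances between unit vectors and reaching every unit vector of `Y`, agrees on the unit sphere
of `H` with a surjective real-linear isometry `T : H → Y`.  Only the values of `f` on unit
vectors enter the hypotheses and the conclusion.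
-/

namespace Vale.Agent.Results.P084.HilbertSphereNormForm

/-- Every surjective isometry from the unit sphere of a real inner product space `H` onto the
unit sphere of a real normed space `Y` extends to a surjective real-linear isometry of `H` onto
`Y`; the surjective isometry is given as a map `f : H → Y` of which only the restriction to the
unit sphere of `H` is used. -/
theorem result {H : Type*} [NormedAddCommGroup H] [InnerProductSpace ℝ H]
    {Y : Type*} [NormedAddCommGroup Y] [NormedSpace ℝ Y] (f : H → Y)
    (hsphere : ∀ x : H, ‖x‖ = 1 → ‖f x‖ = 1)
    (hdist : ∀ x y : H, ‖x‖ = 1 → ‖y‖ = 1 → ‖f x - f y‖ = ‖x - y‖)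
    (honto : ∀ w : Y, ‖w‖ = 1 → ∃ x : H, ‖x‖ = 1 ∧ f x = w) :
    ∃ T : H ≃ₗᵢ[ℝ] Y, ∀ x : H, ‖x‖ = 1 → T x = f x :=
  HilbertMazurUlam.core_extension f hsphere hdist honto

end Vale.Agent.Results.P084.HilbertSphereNormForm
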